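import Vale.Agent.Lib.P331.Gr.Part

/-! # P331: partition matroids: ratio 1/36 (from the block theorem with rank one blocks) -/

namespace Vale.Agent.Lib.P331

open MeasureTheory
open scoped NNReal ENNReal

variable {E : Type} [Fintype E] [DecidableEq E]

theorem keyM_competitive (key : E → ℕ) (X : Set E) :
    Competitive (keyM key X) (thrRuleB (keyM key X) key 1) (1 / 36) := by
  have hsum : IsBlockSum (keyM key X) key := by
    intro I hI
    rw [keyM_indep_iff]
    constructor
    · intro a ha b hb hab
      have h1 := ((keyM_indep_iff key X _).1 (hI (key b))).1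
      exact h1 ⟨ha, hab⟩ ⟨hb, rfl⟩ hab
    · intro a ha
      have h1 := ((keyM_indep_iff key X _).1 (hI (key a))).2
      exact h1 ⟨ha, rfl⟩
  have hr : ∀ j, (blkM (keyM key X) key j).eRank.toNat ≤ 2 ^ 1 := by
    intro j
    have h1 : (blkM (keyM key X) key j).eRank = (keyM key X).eRk {e | key e = j} :=
      Matroid.eRank_restrict _ _
    have h2 : (keyM key X).eRk {e | key e = j} ≤ ((1 : ℕ) : ℕ∞) := by
      rw [Matroid.eRk_le_iff]
      intro J hJ hJi
      have h3 := ((keyM_indep_iff key X J).1 hJi).1
      rw [Nat.cast_one, Set.encard_le_one_iff]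
      intro a b ha hb
      exact h3 ha hb ((hJ ha).trans (hJ hb).symm)
    have h4 : (blkM (keyM key X) key j).eRank.toNat ≤ 1 := by
      rw [h1]
      exact ENat.toNat_le_of_le_natCast h2
    omega
  have h := thrRuleB_competitive (keyM key X) key hsum 1 (le_refl 1) hr
  have e : (18 * (((1 : ℕ) : ℝ≥0∞) + 1)) = 36 := by
    push_cast
    norm_num
  rw [e] at h
  exact h

end Vale.Agent.Lib.P331
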