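import Vale.Agent.Lib.P331.Gr.MixMeas

/-! # P331: the fair mixture of two rules -/

namespace Vale.Agent.Lib.P331

open MeasureTheory
open scoped NNReal ENNReal

variable {E : Type} [Fintype E] [DecidableEq E]

/-- Toss a fair coin, then follow `R₁` (heads) or `R₂` (tails). -/
noncomputable def mixRule (R₁ R₂ : Rule E) : Rule E where
  Seed := R₁.Seed ⊕ R₂.Seed
  mSeed := inferInstance
  law := (2 : ℝ≥0∞)⁻¹ • (R₁.law.map Sum.inl) + (2 : ℝ≥0∞)⁻¹ • (R₂.law.map Sum.inr)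
  prob := mix_prob R₁ R₂
  dec := fun r s past e x =>
    Sum.elim (fun r1 => R₁.dec r1 s past e x) (fun r2 => R₂.dec r2 s past e x) r
  meas := fun past e => mix_meas R₁ R₂ past e

/-- expected value collected by `R` on `M` against `adv` -/
noncomputable def gain (M : Matroid E) (R : Rule E) (D : E → Measure ℝ≥0) (adv : Adversary R) :
    ℝ≥0∞ :=
  ∫⁻ p, ((∑ e ∈ run M R p.1 p.2.1 p.2.2 (adv.order p.1 p.2.1 p.2.2), p.2.2 e : ℝ≥0) : ℝ≥0∞)
    ∂(R.law.prod ((Measure.pi D).prod (Measure.pi D)))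

private noncomputable def advL (R₁ R₂ : Rule E) (adv : Adversary (mixRule R₁ R₂)) :
    Adversary R₁ where
  order := fun r s v => adv.order (Sum.inl r) s v
  nodup := fun r s v => adv.nodup (Sum.inl r) s v
  complete := fun r s v e => adv.complete (Sum.inl r) s v e
  meas := fun l => by
    have h := adv.meas l
    have hm : Measurable (Prod.map (Sum.inl : R₁.Seed → R₁.Seed ⊕ R₂.Seed)
        (id : (E → ℝ≥0) × (E → ℝ≥0) → (E → ℝ≥0) × (E → ℝ≥0))) :=
      measurable_inl.prodMap measurable_id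
    exact hm h

private noncomputable def advR (R₁ R₂ : Rule E) (adv : Adversary (mixRule R₁ R₂)) :
    Adversary R₂ where
  order := fun r s v => adv.order (Sum.inr r) s v
  nodup := fun r s v => adv.nodup (Sum.inr r) s v
  complete := fun r s v e => adv.complete (Sum.inr r) s v e
  meas := fun l => by
    have h := adv.meas l
    have hm : Measurable (Prod.map (Sum.inr : R₂.Seed → R₁.Seed ⊕ R₂.Seed)
        (id : (E → ℝ≥0) × (E → ℝ≥0) → (E → ℝ≥0) × (E → ℝ≥0))) :=
      measurable_inr.prodMap measurable_id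
    exact hm h

private theorem run_inl (M : Matroid E) (R₁ R₂ : Rule E) (r : R₁.Seed) (s v : E → ℝ≥0)
    (l : List E) :
    run M (mixRule R₁ R₂) (Sum.inl r : R₁.Seed ⊕ R₂.Seed) s v l = run M R₁ r s v l := rfl

private theorem run_inr (M : Matroid E) (R₁ R₂ : Rule E) (r : R₂.Seed) (s v : E → ℝ≥0)
    (l : List E) :
    run M (mixRule R₁ R₂) (Sum.inr r : R₁.Seed ⊕ R₂.Seed) s v l = run M R₂ r s v l := rfl

private theorem lint_mix {A B C : Type} [MeasurableSpace A] [MeasurableSpace B]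
    [MeasurableSpace C] (μ₁ : Measure A) (μ₂ : Measure B) (ν : Measure C)
    [SFinite μ₁] [SFinite μ₂] [SFinite ν] (F : (A ⊕ B) × C → ℝ≥0∞) :
    ∫⁻ p, F p ∂(((2 : ℝ≥0∞)⁻¹ • (μ₁.map Sum.inl) + (2 : ℝ≥0∞)⁻¹ • (μ₂.map Sum.inr) :
      Measure (A ⊕ B)).prod ν)
      = 2⁻¹ * ∫⁻ p, F (Sum.inl p.1, p.2) ∂(μ₁.prod ν)
        + 2⁻¹ * ∫⁻ p, F (Sum.inr p.1, p.2) ∂(μ₂.prod ν) := by
  have e1 : ((μ₁.map (Sum.inl : A → A ⊕ B)).prod ν)
      = (μ₁.prod ν).map (Prod.map Sum.inl id) := by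
    have := (Measure.map_prod_map μ₁ ν (measurable_inl : Measurable
      (Sum.inl : A → A ⊕ B)) measurable_id)
    rw [Measure.map_id] at this
    exact this
  have e2 : ((μ₂.map (Sum.inr : B → A ⊕ B)).prod ν)
      = (μ₂.prod ν).map (Prod.map Sum.inr id) := by
    have := (Measure.map_prod_map μ₂ ν (measurable_inr : Measurable
      (Sum.inr : B → A ⊕ B)) measurable_id)
    rw [Measure.map_id] at this
    exact this
  rw [Measure.add_prod, Measure.prod_smul_left, Measure.prod_smul_left, e1, e2,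
    lintegral_add_measure, lintegral_smul_measure, lintegral_smul_measure]
  have m1 : MeasurableEmbedding (Prod.map (Sum.inl : A → A ⊕ B) (id : C → C)) :=
    MeasurableEmbedding.prodMap
      ⟨Sum.inl_injective, measurable_inl, fun _ hs => hs.inl_image⟩ MeasurableEmbedding.id
  have m2 : MeasurableEmbedding (Prod.map (Sum.inr : B → A ⊕ B) (id : C → C)) :=
    MeasurableEmbedding.prodMap
      ⟨Sum.inr_injective, measurable_inr, fun _ hs => hs.inr_image⟩ MeasurableEmbedding.id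
  rw [m1.lintegral_map, m2.lintegral_map]
  rfl

theorem mix_gain (M : Matroid E) (R₁ R₂ : Rule E) (D : E → Measure ℝ≥0)
    [∀ e, IsProbabilityMeasure (D e)] (adv : Adversary (mixRule R₁ R₂)) :
    ∃ (a₁ : Adversary R₁) (a₂ : Adversary R₂),
      gain M (mixRule R₁ R₂) D adv = 2⁻¹ * gain M R₁ D a₁ + 2⁻¹ * gain M R₂ D a₂ := by
  refine ⟨advL R₁ R₂ adv, advR R₁ R₂ adv, ?_⟩
  exact lint_mix R₁.law R₂.law ((Measure.pi D).prod (Measure.pi D))
    (fun p : (R₁.Seed ⊕ R₂.Seed) × (E → ℝ≥0) × (E → ℝ≥0) =>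
      ((∑ e ∈ run M (mixRule R₁ R₂) p.1 p.2.1 p.2.2 (adv.order p.1 p.2.1 p.2.2), p.2.2 e : ℝ≥0) :
        ℝ≥0∞))

end Vale.Agent.Lib.P331
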