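import Vale.Agent.Lib.P331.Gr.Sub
import Vale.Agent.Lib.P331.Gr.Mix

/-! # P331: the simulating rule collects on `M` what `R` collects on `N` -/

namespace Vale.Agent.Lib.P331

open MeasureTheory
open scoped NNReal ENNReal

variable {E : Type} [Fintype E] [DecidableEq E]

theorem sub_gain (M N : Matroid E) (h : ∀ I : Set E, N.Indep I → M.Indep I) (R : Rule E)
    (D : E → Measure ℝ≥0) (adv : Adversary (subRule N R)) :
    ∃ a : Adversary R, gain M (subRule N R) D adv = gain N R D a := by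
  refine ⟨⟨adv.order, adv.nodup, adv.complete, adv.meas⟩, ?_⟩
  unfold gain
  show ∫⁻ p : R.Seed × (E → ℝ≥0) × (E → ℝ≥0),
      ((∑ e ∈ run M (subRule N R) p.1 p.2.1 p.2.2 (adv.order p.1 p.2.1 p.2.2), p.2.2 e : ℝ≥0)
        : ℝ≥0∞) ∂(R.law.prod ((Measure.pi D).prod (Measure.pi D)))
    = ∫⁻ p : R.Seed × (E → ℝ≥0) × (E → ℝ≥0),
      ((∑ e ∈ run N R p.1 p.2.1 p.2.2 (adv.order p.1 p.2.1 p.2.2), p.2.2 e : ℝ≥0)
        : ℝ≥0∞) ∂(R.law.prod ((Measure.pi D).prod (Measure.pi D)))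
  refine lintegral_congr (fun p => ?_)
  rw [run_subRule M N h R p.1 p.2.1 p.2.2 (adv.order p.1 p.2.1 p.2.2)]

end Vale.Agent.Lib.P331
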