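import Vale.Agent.Lib.P331.Blk.Main

/-! # P331: the partition matroid of a key function on the non-loop edges -/

namespace Vale.Agent.Lib.P331

variable {E : Type}

/-- The partition matroid on the set `X`: at most one element for every value of `key`. -/
def keyM (key : E → ℕ) (X : Set E) : Matroid E :=
  ((Matroid.freeOn (Set.univ : Set ℕ)).comap key).restrict X

theorem keyM_indep_iff (key : E → ℕ) (X I : Set E) :
    (keyM key X).Indep I ↔ Set.InjOn key I ∧ I ⊆ X := by
  unfold keyM
  rw [Matroid.restrict_indep_iff, Matroid.comap_indep_iff, Matroid.freeOn_indep_iff]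
  constructor
  · rintro ⟨⟨_, h2⟩, h3⟩
    exact ⟨h2, h3⟩
  · rintro ⟨h2, h3⟩
    exact ⟨⟨Set.subset_univ _, h2⟩, h3⟩

end Vale.Agent.Lib.P331
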