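import Vale.Agent.Lib.P331.Gr.SubGain
import Vale.Agent.Lib.P331.Opt

/-! # P331: reduction of `M` to two smaller constraints -/

namespace Vale.Agent.Lib.P331

open MeasureTheory
open scoped NNReal ENNReal

variable {E : Type} [Fintype E] [DecidableEq E]

theorem competitive_of_two (M N₁ N₂ : Matroid E) (h₁ : ∀ I : Set E, N₁.Indep I → M.Indep I)
    (h₂ : ∀ I : Set E, N₂.Indep I → M.Indep I) (hopt : ∀ v, opt M v ≤ opt N₁ v + opt N₂ v)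
    (R₁ R₂ : Rule E) (c : ℝ≥0∞) (hc₁ : Competitive N₁ R₁ c) (hc₂ : Competitive N₂ R₂ c) :
    Competitive M (mixRule (subRule N₁ R₁) (subRule N₂ R₂)) (c / 2) := by
  intro D hD hfin adv
  have := hD
  change c / 2 * ∫⁻ v, (opt M v : ℝ≥0∞) ∂(Measure.pi D) ≤
    gain M (mixRule (subRule N₁ R₁) (subRule N₂ R₂)) D adv
  obtain ⟨a₁, a₂, hmix⟩ := mix_gain M (subRule N₁ R₁) (subRule N₂ R₂) D adv
  obtain ⟨b₁, hb₁⟩ := sub_gain M N₁ h₁ R₁ D a₁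
  obtain ⟨b₂, hb₂⟩ := sub_gain M N₂ h₂ R₂ D a₂
  rw [hmix, hb₁, hb₂]
  have hle : ∀ (N : Matroid E), (∀ I : Set E, N.Indep I → M.Indep I) → ∀ v, opt N v ≤ opt M v := by
    intro N hN v
    exact opt_le N v _ (fun I hI => sum_le_opt M v (hN _ hI))
  have hfinN : ∀ (N : Matroid E), (∀ I : Set E, N.Indep I → M.Indep I) →
      (∫⁻ v, (opt N v : ℝ≥0∞) ∂(Measure.pi D)) ≠ ⊤ := by
    intro N hN
    refine ne_top_of_le_ne_top hfin (lintegral_mono fun v => ?_)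
    exact ENNReal.coe_le_coe.2 (hle N hN v)
  have g₁ : c * ∫⁻ v, (opt N₁ v : ℝ≥0∞) ∂(Measure.pi D) ≤ gain N₁ R₁ D b₁ :=
    hc₁ D hD (hfinN N₁ h₁) b₁
  have g₂ : c * ∫⁻ v, (opt N₂ v : ℝ≥0∞) ∂(Measure.pi D) ≤ gain N₂ R₂ D b₂ :=
    hc₂ D hD (hfinN N₂ h₂) b₂
  have hsum : ∫⁻ v, (opt M v : ℝ≥0∞) ∂(Measure.pi D) ≤
      ∫⁻ v, (opt N₁ v : ℝ≥0∞) ∂(Measure.pi D) + ∫⁻ v, (opt N₂ v : ℝ≥0∞) ∂(Measure.pi D) := by
    rw [← lintegral_add_left (measurable_opt N₁).coe_nnreal_ennreal]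
    refine lintegral_mono fun v => ?_
    have h := ENNReal.coe_le_coe.2 (hopt v)
    rwa [ENNReal.coe_add] at h
  calc c / 2 * ∫⁻ v, (opt M v : ℝ≥0∞) ∂(Measure.pi D)
      = 2⁻¹ * (c * ∫⁻ v, (opt M v : ℝ≥0∞) ∂(Measure.pi D)) := by
        rw [ENNReal.div_eq_inv_mul, mul_assoc]
    _ ≤ 2⁻¹ * (c * (∫⁻ v, (opt N₁ v : ℝ≥0∞) ∂(Measure.pi D) +
          ∫⁻ v, (opt N₂ v : ℝ≥0∞) ∂(Measure.pi D))) := by
        gcongr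
    _ = 2⁻¹ * (c * ∫⁻ v, (opt N₁ v : ℝ≥0∞) ∂(Measure.pi D)) +
          2⁻¹ * (c * ∫⁻ v, (opt N₂ v : ℝ≥0∞) ∂(Measure.pi D)) := by
        rw [mul_add, mul_add]
    _ ≤ 2⁻¹ * gain N₁ R₁ D b₁ + 2⁻¹ * gain N₂ R₂ D b₂ := by
        gcongr

end Vale.Agent.Lib.P331
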