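import Vale.Agent.Lib.P331.Gr.Lin

/-! # P331: a linearly independent set of edges has an injective choice of ends -/

namespace Vale.Agent.Lib.P331

theorem exists_tail {E : Type} [DecidableEq E] (u w : E → ℕ) (I : Finset E)
    (hI : LinearIndepOn ℚ (ivec u w) (I : Set E)) :
    ∃ t : E → ℕ, (∀ e ∈ I, t e = u e ∨ t e = w e) ∧ Set.InjOn t (I : Set E) := by
  classical
  have hall : ∀ S : Finset I,
      S.card ≤ (S.biUnion fun e : I => ({u e, w e} : Finset ℕ)).card := by
    intro S
    set N := S.biUnion fun e : I => ({u e, w e} : Finset ℕ) with hN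
    have hli : LinearIndependent ℚ (fun e : S => ivec u w ((e : I) : E)) := by
      have h1 : LinearIndependent ℚ (fun e : (I : Set E) => ivec u w e) := hI
      exact h1.comp (fun e : S => (⟨((e : I) : E), (e : I).2⟩ : (I : Set E)))
        (fun a b hab => by
          have := congrArg Subtype.val hab
          exact Subtype.ext (Subtype.ext this))
    have key := linearIndependent_le_span_aux' (fun e : S => ivec u w ((e : I) : E)) hli
      (↑(N.image fun x => Finsupp.single x (1 : ℚ)) : Set (ℕ →₀ ℚ)) (by
        rintro _ ⟨e, rfl⟩
        have hu : u ((e : I) : E) ∈ N := by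
          rw [hN, Finset.mem_biUnion]
          exact ⟨(e : I), e.2, by simp⟩
        have hw : w ((e : I) : E) ∈ N := by
          rw [hN, Finset.mem_biUnion]
          exact ⟨(e : I), e.2, by simp⟩
        refine Submodule.sub_mem _ (Submodule.subset_span ?_) (Submodule.subset_span ?_)
        · exact Finset.mem_coe.2 (Finset.mem_image_of_mem _ hu)
        · exact Finset.mem_coe.2 (Finset.mem_image_of_mem _ hw))
    have h2 : Fintype.card S = S.card := Fintype.card_coe S
    have h3 : Fintype.card (↑(N.image fun x => Finsupp.single x (1 : ℚ)) : Set (ℕ →₀ ℚ))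
        = (N.image fun x => Finsupp.single x (1 : ℚ)).card := by
      simp
    rw [h2, h3] at key
    exact key.trans Finset.card_image_le
  obtain ⟨f, hfi, hfm⟩ :=
    (Finset.all_card_le_biUnion_card_iff_exists_injective
      (fun e : I => ({u e, w e} : Finset ℕ))).1 hall
  refine ⟨fun e => if h : e ∈ I then f ⟨e, h⟩ else 0, fun e he => ?_, fun a ha b hb hab => ?_⟩
  · have := hfm ⟨e, he⟩
    simp only [Finset.mem_insert, Finset.mem_singleton] at this
    simpa [he] using this
  · have ha' : a ∈ I := ha
    have hb' : b ∈ I := hb
    simp only [ha', hb', dif_pos] at hab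
    exact congrArg Subtype.val (hfi hab)

end Vale.Agent.Lib.P331
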