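import Mathlib

/-! # P331: signed incidence vectors of a multigraph: triangular families are independent -/

namespace Vale.Agent.Lib.P331

/-- signed incidence vector of the edge `e` joining the vertices `u e` and `w e` -/
noncomputable def ivec {E : Type} (u w : E → ℕ) (e : E) : ℕ →₀ ℚ :=
  Finsupp.single (u e) 1 - Finsupp.single (w e) 1

/-- If every edge of `I` has a tail `t e` and a head `o e` (its two ends, in some order), the tails
are pairwise distinct and a potential `φ` increases strictly from tail to head, then the incidence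
vectors of `I` are linearly independent. -/
theorem indep_of_tail {E : Type} (u w t o : E → ℕ) (φ : ℕ → ℤ) (I : Set E)
    (hends : ∀ e ∈ I, (t e = u e ∧ o e = w e) ∨ (t e = w e ∧ o e = u e))
    (hlt : ∀ e ∈ I, φ (t e) < φ (o e)) (hinj : Set.InjOn t I) :
    LinearIndepOn ℚ (ivec u w) I := by
  classical
  rw [linearIndepOn_iff']
  intro s g hs hsum
  by_contra hcon
  push Not at hcon
  obtain ⟨e1, he1, hg1⟩ := hcon
  have hne : (s.filter (fun e => g e ≠ 0)).Nonempty := ⟨e1, Finset.mem_filter.2 ⟨he1, hg1⟩⟩
  obtain ⟨e0, he0, hmin⟩ := Finset.exists_min_image (s.filter (fun e => g e ≠ 0))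
    (fun e => φ (t e)) hne
  rw [Finset.mem_filter] at he0
  obtain ⟨he0s, hg0⟩ := he0
  have he0I : e0 ∈ I := hs he0s
  have hto : t e0 ≠ o e0 := by
    intro h
    have := hlt e0 he0I
    rw [h] at this
    exact lt_irrefl _ this
  -- evaluate at x = t e0
  have hev : (∑ e ∈ s, g e • ivec u w e) (t e0) = 0 := by rw [hsum]; rfl
  rw [Finsupp.finsetSum_apply] at hev
  have hsingle : ∑ e ∈ s, (g e • ivec u w e) (t e0) = (g e0 • ivec u w e0) (t e0) := by
    apply Finset.sum_eq_single e0
    · intro e hes hne0
      by_cases hge : g e = 0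
      · simp [hge]
      · have heI : e ∈ I := hs hes
        have h1 : t e ≠ t e0 := fun h => hne0 (hinj heI he0I h)
        have h2 : o e ≠ t e0 := by
          intro h
          have h3 := hlt e heI
          rw [h] at h3
          have h4 := hmin e (Finset.mem_filter.2 ⟨hes, hge⟩)
          exact absurd h3 (not_lt.2 h4)
        have h5 : ivec u w e (t e0) = 0 := by
          rcases hends e heI with ⟨ha, hb⟩ | ⟨ha, hb⟩
          · rw [ha] at h1; rw [hb] at h2
            simp [ivec, h1, h2]
          · rw [ha] at h1; rw [hb] at h2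
            simp [ivec, h1, h2]
        simp [h5]
    · intro h; exact absurd he0s h
  rw [hsingle] at hev
  have h6 : ivec u w e0 (t e0) ≠ 0 := by
    rcases hends e0 he0I with ⟨ha, hb⟩ | ⟨ha, hb⟩
    · have h7 : w e0 ≠ u e0 := by rw [← ha, ← hb]; exact hto.symm
      rw [ha]
      simp [ivec, h7]
    · have h7 : u e0 ≠ w e0 := by rw [← ha, ← hb]; exact hto.symm
      rw [ha]
      simp [ivec, h7]
  rw [Finsupp.smul_apply, smul_eq_mul] at hev
  rcases mul_eq_zero.1 hev with h | h
  · exact hg0 h
  · exact h6 h

end Vale.Agent.Lib.P331
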