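import Vale.Agent.Lib.P331.Gr.Lin
import Vale.Agent.Lib.P331.Gr.Part

/-! # P331: the two partition matroids of a multigraph; their independent sets are forests -/

namespace Vale.Agent.Lib.P331

variable {E : Type}

/-- lower end -/
def lo (u w : E → ℕ) (e : E) : ℕ := min (u e) (w e)
/-- upper end -/
def hi (u w : E → ℕ) (e : E) : ℕ := max (u e) (w e)
/-- the edges that are not loops of the graph -/
def nl (u w : E → ℕ) : Set E := {e | u e ≠ w e}

theorem lo_indep (u w : E → ℕ) (I : Set E) (h : (keyM (lo u w) (nl u w)).Indep I) :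
    LinearIndepOn ℚ (ivec u w) I := by
  obtain ⟨hinj, hsub⟩ := (keyM_indep_iff _ _ _).1 h
  refine indep_of_tail u w (lo u w) (hi u w) (fun n => (n : ℤ)) I ?_ ?_ hinj
  · intro e _
    rcases le_total (u e) (w e) with hle | hle
    · left
      exact ⟨min_eq_left hle, max_eq_right hle⟩
    · right
      exact ⟨min_eq_right hle, max_eq_left hle⟩
  · intro e he
    have hne : u e ≠ w e := hsub he
    have hlt : lo u w e < hi u w e := by
      unfold lo hi
      rcases lt_trichotomy (u e) (w e) with h1 | h1 | h1
      · rw [min_eq_left h1.le, max_eq_right h1.le]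
        exact h1
      · exact absurd h1 hne
      · rw [min_eq_right h1.le, max_eq_left h1.le]
        exact h1
    show ((lo u w e : ℕ) : ℤ) < ((hi u w e : ℕ) : ℤ)
    exact_mod_cast hlt

theorem hi_indep (u w : E → ℕ) (I : Set E) (h : (keyM (hi u w) (nl u w)).Indep I) :
    LinearIndepOn ℚ (ivec u w) I := by
  obtain ⟨hinj, hsub⟩ := (keyM_indep_iff _ _ _).1 h
  refine indep_of_tail u w (hi u w) (lo u w) (fun n => -(n : ℤ)) I ?_ ?_ hinj
  · intro e _
    rcases le_total (u e) (w e) with hle | hle
    · right
      exact ⟨max_eq_right hle, min_eq_left hle⟩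
    · left
      exact ⟨max_eq_left hle, min_eq_right hle⟩
  · intro e he
    have hne : u e ≠ w e := hsub he
    have hlt : lo u w e < hi u w e := by
      unfold lo hi
      rcases lt_trichotomy (u e) (w e) with h1 | h1 | h1
      · rw [min_eq_left h1.le, max_eq_right h1.le]
        exact h1
      · exact absurd h1 hne
      · rw [min_eq_right h1.le, max_eq_left h1.le]
        exact h1
    show -((hi u w e : ℕ) : ℤ) < -((lo u w e : ℕ) : ℤ)
    have : ((lo u w e : ℕ) : ℤ) < ((hi u w e : ℕ) : ℤ) := by exact_mod_cast hlt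
    linarith

end Vale.Agent.Lib.P331
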