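import Vale.Agent.Lib.P331.Gr.Hall
import Vale.Agent.Lib.P331.Gr.LoHi

/-! # P331: Korula-Pal: a graphic matroid is covered by two partition matroids -/

namespace Vale.Agent.Lib.P331

open scoped NNReal ENNReal

variable {E : Type} [Fintype E] [DecidableEq E]

theorem opt_le_two (M : Matroid E) (u w : E → ℕ)
    (hM : ∀ I : Set E, M.Indep I ↔ LinearIndepOn ℚ (ivec u w) I) (v : E → ℝ≥0) :
    opt M v ≤ opt (keyM (lo u w) (nl u w)) v + opt (keyM (hi u w) (nl u w)) v := by
  classical
  apply opt_le
  intro I hI
  have hI' : LinearIndepOn ℚ (ivec u w) (I : Set E) := (hM I).1 hI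
  obtain ⟨t, ht, hinj⟩ := exists_tail u w I hI'
  have hne : ∀ e ∈ I, u e ≠ w e := by
    intro e he heq
    have h0 : ivec u w e ≠ 0 := hI'.ne_zero (Finset.mem_coe.2 he)
    apply h0
    unfold ivec
    rw [heq, sub_self]
  have hA : (keyM (lo u w) (nl u w)).Indep
      ((I.filter (fun e => t e = lo u w e) : Finset E) : Set E) := by
    rw [keyM_indep_iff]
    constructor
    · intro a ha b hb hab
      have ha' := Finset.mem_filter.1 (Finset.mem_coe.1 ha)
      have hb' := Finset.mem_filter.1 (Finset.mem_coe.1 hb)
      apply hinj (Finset.mem_coe.2 ha'.1) (Finset.mem_coe.2 hb'.1)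
      rw [ha'.2, hb'.2, hab]
    · intro a ha
      have ha' := Finset.mem_filter.1 (Finset.mem_coe.1 ha)
      exact hne a ha'.1
  have hhi : ∀ e ∈ I, ¬ t e = lo u w e → t e = hi u w e := by
    intro e he hn
    unfold lo at hn
    unfold hi
    rcases ht e he with h | h
    · rcases le_total (u e) (w e) with hle | hle
      · rw [min_eq_left hle] at hn
        exact absurd h hn
      · rw [max_eq_left hle]
        exact h
    · rcases le_total (u e) (w e) with hle | hle
      · rw [max_eq_right hle]
        exact h
      · rw [min_eq_right hle] at hn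
        exact absurd h hn
  have hB : (keyM (hi u w) (nl u w)).Indep
      ((I.filter (fun e => ¬ t e = lo u w e) : Finset E) : Set E) := by
    rw [keyM_indep_iff]
    constructor
    · intro a ha b hb hab
      have ha' := Finset.mem_filter.1 (Finset.mem_coe.1 ha)
      have hb' := Finset.mem_filter.1 (Finset.mem_coe.1 hb)
      apply hinj (Finset.mem_coe.2 ha'.1) (Finset.mem_coe.2 hb'.1)
      rw [hhi a ha'.1 ha'.2, hhi b hb'.1 hb'.2, hab]
    · intro a ha
      have ha' := Finset.mem_filter.1 (Finset.mem_coe.1 ha)
      exact hne a ha'.1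
  rw [← Finset.sum_filter_add_sum_filter_not I (fun e => t e = lo u w e) v]
  exact add_le_add (sum_le_opt _ v hA) (sum_le_opt _ v hB)

end Vale.Agent.Lib.P331
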