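import Vale.Agent.Lib.P331.Gr.Combine
import Vale.Agent.Lib.P331.Gr.OptTwo
import Vale.Agent.Lib.P331.Gr.PartComp

/-! # P331: graphic matroids: a constant ratio -/

namespace Vale.Agent.Lib.P331

open scoped NNReal ENNReal

variable {E : Type} [Fintype E] [DecidableEq E]

theorem graphic_competitive (M : Matroid E) (u w : E → ℕ)
    (hM : ∀ I : Set E, M.Indep I ↔ LinearIndepOn ℚ (ivec u w) I) :
    ∃ R : Rule E, Competitive M R (1 / 72) := by
  refine ⟨mixRule (subRule (keyM (lo u w) (nl u w)) (thrRuleB (keyM (lo u w) (nl u w)) (lo u w) 1))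
    (subRule (keyM (hi u w) (nl u w)) (thrRuleB (keyM (hi u w) (nl u w)) (hi u w) 1)), ?_⟩
  have h := competitive_of_two M (keyM (lo u w) (nl u w)) (keyM (hi u w) (nl u w))
    (fun I hI => (hM I).2 (lo_indep u w I hI)) (fun I hI => (hM I).2 (hi_indep u w I hI))
    (opt_le_two M u w hM) _ _ (1 / 36) (keyM_competitive _ _) (keyM_competitive _ _)
  have e : (1 / 36 : ℝ≥0∞) / 2 = 1 / 72 := by
    rw [ENNReal.div_eq_inv_mul, ENNReal.div_eq_inv_mul, ENNReal.div_eq_inv_mul, mul_one, mul_one,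
      ← ENNReal.mul_inv (by norm_num) (by norm_num)]
    norm_num
  rw [e] at h
  exact h

end Vale.Agent.Lib.P331
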