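import Vale.Agent.Lib.P331.Blk.Main

/-! # P331: the fair mixture of two rules: measurability facts -/

namespace Vale.Agent.Lib.P331

open MeasureTheory
open scoped NNReal ENNReal

variable {E : Type} [Fintype E] [DecidableEq E]

theorem mix_prob (R₁ R₂ : Rule E) :
    IsProbabilityMeasure ((2 : ℝ≥0∞)⁻¹ • (R₁.law.map Sum.inl) + (2 : ℝ≥0∞)⁻¹ • (R₂.law.map Sum.inr) :
      Measure (R₁.Seed ⊕ R₂.Seed)) := by
  constructor
  rw [Measure.add_apply, Measure.smul_apply, Measure.smul_apply,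
    Measure.map_apply measurable_inl MeasurableSet.univ,
    Measure.map_apply measurable_inr MeasurableSet.univ, Set.preimage_univ, Set.preimage_univ,
    measure_univ, measure_univ, smul_eq_mul, mul_one]
  exact ENNReal.inv_two_add_inv_two

theorem mix_meas (R₁ R₂ : Rule E) (past : List E) (e : E) :
    Measurable (fun p : (R₁.Seed ⊕ R₂.Seed) × (E → ℝ≥0) × (E → ℝ≥0) =>
      Sum.elim (fun r1 => R₁.dec r1 p.2.1 past e p.2.2) (fun r2 => R₂.dec r2 p.2.1 past e p.2.2)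
        p.1) := by
  have h : (fun p : (R₁.Seed ⊕ R₂.Seed) × (E → ℝ≥0) × (E → ℝ≥0) =>
      Sum.elim (fun r1 => R₁.dec r1 p.2.1 past e p.2.2) (fun r2 => R₂.dec r2 p.2.1 past e p.2.2)
        p.1) =
      (Sum.elim (fun q : R₁.Seed × (E → ℝ≥0) × (E → ℝ≥0) => R₁.dec q.1 q.2.1 past e q.2.2)
        (fun q : R₂.Seed × (E → ℝ≥0) × (E → ℝ≥0) => R₂.dec q.1 q.2.1 past e q.2.2)) ∘
      (MeasurableEquiv.sumProdDistrib R₁.Seed R₂.Seed ((E → ℝ≥0) × (E → ℝ≥0))) := by
    funext p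
    rcases p with ⟨r | r, s, x⟩ <;> rfl
  rw [h]
  exact (Measurable.sumElim (R₁.meas past e) (R₂.meas past e)).comp (MeasurableEquiv.measurable _)

end Vale.Agent.Lib.P331
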