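import Vale.Agent.Lib.P331.Blk.Main

/-! # P331: measurability of the accepted set, and of the wish of the simulating rule -/

namespace Vale.Agent.Lib.P331

open MeasureTheory
open scoped NNReal ENNReal

variable {E : Type} [Fintype E] [DecidableEq E]

omit [Fintype E] in
theorem foldl_step_fst (N : Matroid E) (R : Rule E) (r : R.Seed) (s v : E → ℝ≥0) (l : List E)
    (st : List E × Finset E) : (l.foldl (step N R r s v) st).1 = l.reverse ++ st.1 := by
  induction l generalizing st with
  | nil => simp
  | cons a l ih =>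
    rw [List.foldl_cons, ih]
    simp [step]

omit [Fintype E] in
theorem measurable_mask (l : List E) : Measurable (mask l : (E → ℝ≥0) → (E → ℝ≥0)) := by
  refine measurable_pi_iff.mpr (fun f => ?_)
  unfold mask
  by_cases h : f ∈ l
  · simp only [h, if_true]; exact measurable_pi_apply f
  · simp only [h, if_false]; exact measurable_const

omit [Fintype E] in
theorem measurableSet_dec (R : Rule E) (past : List E) (e : E) (l : List E) :
    MeasurableSet {p : R.Seed × (E → ℝ≥0) × (E → ℝ≥0) |
      R.dec p.1 p.2.1 past e (mask l p.2.2) = true} := by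
  have hg : Measurable (fun p : R.Seed × (E → ℝ≥0) × (E → ℝ≥0) => (p.1, p.2.1, mask l p.2.2)) :=
    measurable_fst.prodMk (measurable_snd.fst.prodMk ((measurable_mask l).comp measurable_snd.snd))
  have h := (R.meas past e).comp hg
  have e1 : {p : R.Seed × (E → ℝ≥0) × (E → ℝ≥0) | R.dec p.1 p.2.1 past e (mask l p.2.2) = true}
      = ((fun p : R.Seed × (E → ℝ≥0) × (E → ℝ≥0) => R.dec p.1 p.2.1 past e p.2.2) ∘
          (fun p : R.Seed × (E → ℝ≥0) × (E → ℝ≥0) => (p.1, p.2.1, mask l p.2.2))) ⁻¹' {true} := by
    ext p
    simp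
  rw [e1]
  exact h (measurableSet_singleton true)

omit [Fintype E] [DecidableEq E] in
theorem measurableSet_dec0 (R : Rule E) (past : List E) (e : E) :
    MeasurableSet {p : R.Seed × (E → ℝ≥0) × (E → ℝ≥0) | R.dec p.1 p.2.1 past e p.2.2 = true} := by
  have e1 : {p : R.Seed × (E → ℝ≥0) × (E → ℝ≥0) | R.dec p.1 p.2.1 past e p.2.2 = true}
      = (fun p : R.Seed × (E → ℝ≥0) × (E → ℝ≥0) => R.dec p.1 p.2.1 past e p.2.2) ⁻¹' {true} := by
    ext p
    simp
  rw [e1]
  exact (R.meas past e) (measurableSet_singleton true)

theorem measurableSet_ite_eq {Ω α : Type*} [MeasurableSpace Ω] (P : Ω → Prop) [DecidablePred P]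
    (hP : MeasurableSet {p | P p}) (a b A : α) :
    MeasurableSet {p | (if P p then a else b) = A} := by
  have : {p | (if P p then a else b) = A}
      = ({p | P p} ∩ {_p | a = A}) ∪ ({p | P p}ᶜ ∩ {_p | b = A}) := by
    ext p
    by_cases h : P p <;> simp [h]
  rw [this]
  exact (hP.inter (MeasurableSet.const _)).union (hP.compl.inter (MeasurableSet.const _))

open scoped Classical in
theorem run_append_singleton (N : Matroid E) (R : Rule E) (r : R.Seed) (s v : E → ℝ≥0)
    (l : List E) (e : E) :
    run N R r s v (l ++ [e]) =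
      if R.dec r s l.reverse e (mask (e :: l.reverse) v) = true ∧
          N.Indep ((insert e (run N R r s v l) : Finset E) : Set E)
      then insert e (run N R r s v l) else run N R r s v l := by
  unfold run
  rw [List.foldl_append, List.foldl_cons, List.foldl_nil]
  simp only [step]
  rw [foldl_step_fst]
  simp

/-- for a fixed arrival order the accepted set is a measurable function of seed, samples, values -/
theorem measurableSet_run (N : Matroid E) (R : Rule E) (l : List E) (A : Finset E) :
    MeasurableSet {p : R.Seed × (E → ℝ≥0) × (E → ℝ≥0) | run N R p.1 p.2.1 p.2.2 l = A} := by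
  classical
  induction l using List.reverseRecOn generalizing A with
  | nil =>
    have : {p : R.Seed × (E → ℝ≥0) × (E → ℝ≥0) | run N R p.1 p.2.1 p.2.2 [] = A}
        = {_p | (∅ : Finset E) = A} := by
      ext p
      simp [run]
    rw [this]
    exact MeasurableSet.const _
  | append_singleton l e ih =>
    have key : {p : R.Seed × (E → ℝ≥0) × (E → ℝ≥0) | run N R p.1 p.2.1 p.2.2 (l ++ [e]) = A}
        = ⋃ B : Finset E, ({p : R.Seed × (E → ℝ≥0) × (E → ℝ≥0) | run N R p.1 p.2.1 p.2.2 l = B} ∩
          {p : R.Seed × (E → ℝ≥0) × (E → ℝ≥0) |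
            (if (R.dec p.1 p.2.1 l.reverse e (mask (e :: l.reverse) p.2.2) = true ∧
              N.Indep ((insert e B : Finset E) : Set E)) then insert e B else B) = A}) := by
      ext p
      simp only [Set.mem_ofPred_eq, Set.mem_iUnion, Set.mem_inter_iff]
      rw [run_append_singleton]
      constructor
      · intro h
        exact ⟨_, rfl, h⟩
      · rintro ⟨B, hB, h⟩
        rw [hB]
        exact h
    rw [key]
    refine MeasurableSet.iUnion (fun B => (ih B).inter ?_)
    apply measurableSet_ite_eq
    rw [Set.ofPred_and]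
    exact (measurableSet_dec R l.reverse e (e :: l.reverse)).inter (MeasurableSet.const _)

open scoped Classical in
theorem measurable_subDec (N : Matroid E) (R : Rule E) (past : List E) (e : E) :
    Measurable (fun p : R.Seed × (E → ℝ≥0) × (E → ℝ≥0) =>
      R.dec p.1 p.2.1 past e p.2.2 &&
        decide (N.Indep ((insert e (run N R p.1 p.2.1 p.2.2 past.reverse) : Finset E) : Set E))) := by
  apply measurable_to_bool
  have key : (fun p : R.Seed × (E → ℝ≥0) × (E → ℝ≥0) =>
      R.dec p.1 p.2.1 past e p.2.2 &&
        decide (N.Indep ((insert e (run N R p.1 p.2.1 p.2.2 past.reverse) : Finset E) : Set E)))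
        ⁻¹' {true}
      = {p : R.Seed × (E → ℝ≥0) × (E → ℝ≥0) | R.dec p.1 p.2.1 past e p.2.2 = true} ∩
        ⋃ B : Finset E, ({p : R.Seed × (E → ℝ≥0) × (E → ℝ≥0) |
          run N R p.1 p.2.1 p.2.2 past.reverse = B} ∩
          {_p | N.Indep ((insert e B : Finset E) : Set E)}) := by
    ext p
    simp only [Set.mem_preimage, Set.mem_singleton_iff, Bool.and_eq_true, decide_eq_true_eq,
      Set.mem_inter_iff, Set.mem_ofPred_eq, Set.mem_iUnion]
    constructor
    · rintro ⟨h1, h2⟩
      exact ⟨h1, _, rfl, h2⟩
    · rintro ⟨h1, B, hB, h2⟩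
      refine ⟨h1, ?_⟩
      rw [hB]
      exact h2
  rw [key]
  exact (measurableSet_dec0 R past e).inter
    (MeasurableSet.iUnion (fun B => (measurableSet_run N R past.reverse B).inter
      (MeasurableSet.const _)))

end Vale.Agent.Lib.P331
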