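import Vale.Agent.Lib.P331.Gr.RunMeas

/-! # P331: running a rule for a smaller constraint `N` inside `M` -/

namespace Vale.Agent.Lib.P331

open MeasureTheory
open scoped NNReal ENNReal

variable {E : Type} [Fintype E] [DecidableEq E]

open scoped Classical in
/-- The rule that simulates `R` on the matroid `N`: it recomputes from the past arrivals and their
revealed values the set that `R` would have accepted on `N`, and wishes the arriving element iff `R`
wishes it and that set stays independent in `N`. -/
noncomputable def subRule (N : Matroid E) (R : Rule E) : Rule E where
  Seed := R.Seed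
  mSeed := R.mSeed
  law := R.law
  prob := R.prob
  dec := fun r s past e x => R.dec r s past e x &&
    decide (N.Indep ((insert e (run N R r s x past.reverse) : Finset E) : Set E))
  meas := fun past e => measurable_subDec N R past e

theorem foldl_step_fst_sub (M : Matroid E) (R : Rule E) (r : R.Seed) (s v : E → ℝ≥0) (l : List E)
    (st : List E × Finset E) : (l.foldl (step M R r s v) st).1 = l.reverse ++ st.1 := by
  induction l generalizing st with
  | nil => simp
  | cons e l ih =>
    rw [List.foldl_cons, ih]
    simp [step]

theorem foldl_step_congr (M : Matroid E) (R : Rule E) (r : R.Seed) (s v v' : E → ℝ≥0)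
    (l : List E) (st : List E × Finset E) (hl : ∀ f ∈ l, v f = v' f)
    (hst : ∀ f ∈ st.1, v f = v' f) :
    l.foldl (step M R r s v) st = l.foldl (step M R r s v') st := by
  induction l generalizing st with
  | nil => rfl
  | cons e l ih =>
    rw [List.foldl_cons, List.foldl_cons]
    have hm : mask (e :: st.1) v = mask (e :: st.1) v' := by
      funext f
      unfold mask
      split_ifs with hf
      · rcases List.mem_cons.mp hf with rfl | hf
        · exact hl _ List.mem_cons_self
        · exact hst f hf
      · rfl
    have hs : step M R r s v st e = step M R r s v' st e := by
      unfold step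
      rw [hm]
    rw [hs]
    apply ih
    · intro f hf
      exact hl f (List.mem_cons_of_mem _ hf)
    · intro f hf
      have hf' : f ∈ e :: st.1 := hf
      rcases List.mem_cons.mp hf' with rfl | hf
      · exact hl _ List.mem_cons_self
      · exact hst f hf

theorem run_mask (N : Matroid E) (R : Rule E) (r : R.Seed) (s v : E → ℝ≥0) (l : List E) (e : E) :
    run N R r s (mask (e :: l.reverse) v) l = run N R r s v l := by
  unfold run
  rw [foldl_step_congr N R r s (mask (e :: l.reverse) v) v l ([], ∅) ?_ ?_]
  · intro f hf
    unfold mask
    rw [if_pos]
    simp [hf]
  · intro f hf
    simp at hf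

/-- If every independent set of `N` is independent in `M`, the simulating rule accepts on `M` exactly
what `R` accepts on `N`. -/
theorem run_subRule (M N : Matroid E) (h : ∀ I : Set E, N.Indep I → M.Indep I) (R : Rule E)
    (r : R.Seed) (s v : E → ℝ≥0) (l : List E) :
    run M (subRule N R) r s v l = run N R r s v l := by
  classical
  have key : ∀ l : List E, l.foldl (step M (subRule N R) r s v) ([], ∅)
      = l.foldl (step N R r s v) ([], ∅) := by
    intro l
    induction l using List.reverseRecOn with
    | nil => rfl
    | append_singleton l e ih =>
      rw [List.foldl_append, List.foldl_append, ih]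
      simp only [List.foldl_cons, List.foldl_nil]
      obtain ⟨st, hst⟩ : ∃ st, st = l.foldl (step N R r s v) ([], ∅) := ⟨_, rfl⟩
      have h1 : st.1 = l.reverse := by
        rw [hst, foldl_step_fst_sub]
        simp
      have h2 : st.2 = run N R r s v l := by
        rw [hst]
        rfl
      rw [← hst]
      have hrun : run N R r s (mask (e :: st.1) v) st.1.reverse = st.2 := by
        rw [h1, List.reverse_reverse, run_mask, ← h2]
      unfold step
      simp only [subRule, hrun, Bool.and_eq_true, decide_eq_true_eq]
      by_cases hN : N.Indep ((insert e st.2 : Finset E) : Set E)
      · have hM := h _ hN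
        simp only [hN, hM, and_true]
      · simp only [hN, and_false, false_and]
  unfold run
  rw [key]

end Vale.Agent.Lib.P331
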